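import Vale.Agent.P131.Op

namespace Vale.Agent.Results.P131.Counterexample

open Vale.Agent.P131
open scoped InnerProductSpace

lemma trivial_of_core {H : Type*} [NormedAddCommGroup H] [InnerProductSpace ℂ H] [CompleteSpace H]
    (T : H →L[ℂ] H)
    (h : ∀ F G : H, (∀ A : H →L[ℂ] H, A * T = T * A → ⟪G, A F⟫_ℂ = 0) → F = 0 ∨ G = 0)
    (M : Submodule ℂ H) (hM : IsClosed (M : Set H))
    (hinv : ∀ A : H →L[ℂ] H, A * T = T * A → ∀ x ∈ M, A x ∈ M) : M = ⊥ ∨ M = ⊤ := by
  by_contra hc
  push Not at hc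
  obtain ⟨F, hF, hF0⟩ := Submodule.exists_mem_ne_zero_of_ne_bot hc.1
  haveI : CompleteSpace M := hM.completeSpace_coe
  have : Mᗮ ≠ ⊥ := fun e => hc.2 (Submodule.orthogonal_eq_bot_iff.1 e)
  obtain ⟨G, hG, hG0⟩ := Submodule.exists_mem_ne_zero_of_ne_bot this
  rcases h F G fun A hA => Submodule.inner_left_of_mem_orthogonal (hinv A hA F hF) hG with e | e
  · exact hF0 e
  · exact hG0 e

lemma infinite_HH : ¬ FiniteDimensional ℂ HH := by
  intro hfin
  rcases subsingleton_or_nontrivial HH with hs | hs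
  · exact TT_ne 0 (by ext1 x; exact Subsingleton.elim _ _)
  obtain ⟨c, hc⟩ := Module.End.exists_eigenvalue (TT : HH →ₗ[ℂ] HH)
  rcases trivial_of_core TT core (Module.End.eigenspace (TT : HH →ₗ[ℂ] HH) c)
    (Submodule.closed_of_finiteDimensional _) (fun A hA x hx => by
      rw [Module.End.mem_eigenspace_iff] at hx ⊢
      have h1 : TT (A x) = A (TT x) := (congrArg (fun S : HH →L[ℂ] HH => S x) hA).symm
      have h2 : TT x = c • x := hx
      show TT (A x) = _
      rw [h1, h2, map_smul]) with e | e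
  · exact hc e
  · refine TT_ne c (ContinuousLinearMap.ext fun x => ?_)
    have : x ∈ Module.End.eigenspace (TT : HH →ₗ[ℂ] HH) c := e ▸ Submodule.mem_top
    exact Module.End.mem_eigenspace_iff.1 this

lemma exists_basis (H : Type*) [NormedAddCommGroup H] [InnerProductSpace ℂ H] [CompleteSpace H]
    [TopologicalSpace.SeparableSpace H] (h : ¬ FiniteDimensional ℂ H) :
    Nonempty (HilbertBasis ℕ ℂ H) := by
  obtain ⟨w, b, -⟩ := exists_hilbertBasis ℂ H
  haveI : Countable w := by
    refine Pairwise.countable_of_isOpen_disjoint (s := fun i : w => Metric.ball (b i) (1 / 2))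
      (fun i j hij => Metric.ball_disjoint_ball ?_) (fun _ => Metric.isOpen_ball)
      fun i => Metric.nonempty_ball.2 (by norm_num)
    have h1 : ⟪b i, b i - b j⟫_ℂ = 1 := by
      rw [inner_sub_right, b.orthonormal.2 hij, inner_self_eq_norm_sq_to_K, b.orthonormal.1 i]
      simp
    have h2 := norm_inner_le_norm (𝕜 := ℂ) (b i) (b i - b j)
    rw [h1, b.orthonormal.1 i, norm_one, one_mul] at h2
    rw [dist_eq_norm]
    linarith
  haveI : Infinite w := by
    rw [← not_finite_iff_infinite]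
    intro hw
    haveI := Fintype.ofFinite w
    exact h (Module.Finite.of_basis b.toOrthonormalBasis.toBasis)
  obtain ⟨e⟩ : Nonempty (ℕ ≃ w) := nonempty_equiv_of_countable
  refine ⟨HilbertBasis.mk (v := b ∘ e) (b.orthonormal.comp e e.injective) ?_⟩
  rw [Set.range_comp, e.range_eq_univ, Set.image_univ, b.dense_span]

theorem result (H : Type*) [NormedAddCommGroup H] [InnerProductSpace ℂ H] [CompleteSpace H]
    [TopologicalSpace.SeparableSpace H] (hH : ¬ FiniteDimensional ℂ H) :
    ∃ T : H →L[ℂ] H, (∀ c : ℂ, T ≠ c • (1 : H →L[ℂ] H)) ∧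
      ∀ M : Submodule ℂ H, IsClosed (M : Set H) →
        (∀ A : H →L[ℂ] H, A * T = T * A → ∀ x ∈ M, A x ∈ M) → M = ⊥ ∨ M = ⊤ := by
  haveI : Fact ((2 : ENNReal) ≠ ⊤) := ⟨by norm_num⟩
  obtain ⟨b1⟩ := exists_basis H hH
  obtain ⟨b0⟩ := exists_basis HH infinite_HH
  let U : HH ≃ₗᵢ[ℂ] H := b0.repr.trans b1.repr.symm
  let V : HH →L[ℂ] H := U.toContinuousLinearEquiv.toContinuousLinearMap
  let W : H →L[ℂ] HH := U.symm.toContinuousLinearEquiv.toContinuousLinearMap
  refine ⟨V.comp (TT.comp W), fun c hc => TT_ne c (ContinuousLinearMap.ext fun x => ?_),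
    trivial_of_core _ fun F G h => ?_⟩
  · have := congrArg (fun S : H →L[ℂ] H => U.symm (S (U x))) hc
    simpa [V, W] using this
  · rcases core (U.symm F) (U.symm G) fun A hA => (by
      have := h (V.comp (A.comp W)) (ContinuousLinearMap.ext fun x => by
        have := congrArg (fun S : HH →L[ℂ] HH => U (S (U.symm x))) hA
        simpa [V, W] using this)
      rw [← U.inner_map_map]
      simpa [V, W] using this) with e | e
    · left; simpa using e
    · right; simpa using e

end Vale.Agent.Results.P131.Counterexample
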